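import Vale.Agent.P178.H847.QDef

/-!
# Base change for Quillen's category `Q P(R)`
-/

open CategoryTheory

namespace Vale.Agent.P178.H847

universe u v w

/-- a direct summand of a projective module has a projective quotient -/
theorem projective_quot_of_retraction {R : Type u} [CommRing R] {L : Type v} [AddCommGroup L]
    [Module R L] [Module.Projective R L] (N : Submodule R L) (r : L →ₗ[R] L)
    (h1 : ∀ x, r x ∈ N) (h2 : ∀ x ∈ N, r x = x) : Module.Projective R (L ⧸ N) := by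
  have h0 : N ≤ LinearMap.ker (LinearMap.id - r) := by
    intro x hx
    rw [LinearMap.mem_ker, LinearMap.sub_apply, h2 x hx, LinearMap.id_apply, sub_self]
  refine Module.Projective.of_split (N.liftQ (LinearMap.id - r) h0) N.mkQ ?_
  refine LinearMap.ext fun a => ?_
  obtain ⟨m, rfl⟩ := Submodule.mkQ_surjective _ a
  have key : m - (m - r m) ∈ N := by
    rw [sub_sub_cancel]
    exact h1 m
  exact ((Submodule.Quotient.eq N).2 key).symm

section BaseChange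

variable {R S : Type u} [CommRing R] [CommRing S] (f : R →+* S)

/-- the image of a vector -/
def fv {n : ℕ} (v : Fin n → R) : Fin n → S := fun i => f (v i)

theorem fv_add {n : ℕ} (v w : Fin n → R) : fv f (v + w) = fv f v + fv f w :=
  funext fun _ => map_add f _ _

theorem fv_smul {n : ℕ} (r : R) (v : Fin n → R) : fv f (r • v) = f r • fv f v :=
  funext fun _ => map_mul f _ _

/-- the base change `S · f(N) ⊆ S ^ n` of a submodule `N ⊆ R ^ n` -/
def bc {n : ℕ} (N : Submodule R (Fin n → R)) : Submodule S (Fin n → S) :=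
  Submodule.span S (fv f '' (N : Set (Fin n → R)))

theorem fv_mem_bc {n : ℕ} {N : Submodule R (Fin n → R)} {v : Fin n → R} (hv : v ∈ N) :
    fv f v ∈ bc f N := Submodule.subset_span ⟨v, hv, rfl⟩

/-- the base change of a linear map: the matrix is mapped by `f` -/
noncomputable def bcMap {n m : ℕ} (T : (Fin n → R) →ₗ[R] (Fin m → R)) :
    (Fin n → S) →ₗ[S] (Fin m → S) := Matrix.toLin' ((LinearMap.toMatrix' T).map f)

theorem bcMap_fv {n m : ℕ} (T : (Fin n → R) →ₗ[R] (Fin m → R)) (v : Fin n → R) :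
    bcMap f T (fv f v) = fv f (T v) := by
  funext i
  have h := RingHom.map_mulVec f (LinearMap.toMatrix' T) v i
  rw [LinearMap.toMatrix'_mulVec] at h
  rw [bcMap, Matrix.toLin'_apply]
  exact h.symm

theorem bcMap_mem {n m : ℕ} (T : (Fin n → R) →ₗ[R] (Fin m → R)) {N : Submodule R (Fin n → R)}
    {N' : Submodule R (Fin m → R)} (h : ∀ x ∈ N, T x ∈ N') {x : Fin n → S} (hx : x ∈ bc f N) :
    bcMap f T x ∈ bc f N' := by
  have : bc f N ≤ (bc f N').comap (bcMap f T) := by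
    rw [bc, Submodule.span_le]
    rintro _ ⟨v, hv, rfl⟩
    change bcMap f T (fv f v) ∈ bc f N'
    rw [bcMap_fv]
    exact fv_mem_bc f (h v hv)
  exact this hx

theorem bcMap_eq_on {n m : ℕ} (T T' : (Fin n → S) →ₗ[S] (Fin m → S))
    {N : Submodule R (Fin n → R)} (h : ∀ x ∈ N, T (fv f x) = T' (fv f x)) {x : Fin n → S}
    (hx : x ∈ bc f N) : T x = T' x := by
  have : bc f N ≤ LinearMap.eqLocus T T' := by
    rw [bc, Submodule.span_le]
    rintro _ ⟨v, hv, rfl⟩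
    exact h v hv
  exact this hx

theorem bc_mono {n : ℕ} {N N' : Submodule R (Fin n → R)} (h : N ≤ N') : bc f N ≤ bc f N' :=
  Submodule.span_mono (Set.image_mono h)

/-- a projection of `R ^ n` onto a direct summand -/
theorem exists_proj {n : ℕ} (N : Submodule R (Fin n → R))
    (h : Module.Projective R ((Fin n → R) ⧸ N)) :
    ∃ e : (Fin n → R) →ₗ[R] (Fin n → R), (∀ x, e x ∈ N) ∧ ∀ x ∈ N, e x = x := by
  obtain ⟨σ, r, -, -, hr⟩ := exists_split N h
  exact ⟨N.subtype ∘ₗ r, fun x => (r x).2, fun x hx => congrArg Subtype.val (hr ⟨x, hx⟩)⟩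

theorem bcMap_proj_mem {n : ℕ} {N : Submodule R (Fin n → R)}
    {e : (Fin n → R) →ₗ[R] (Fin n → R)} (h1 : ∀ x, e x ∈ N) (x : Fin n → S) :
    bcMap f e x ∈ bc f N := by
  have h : x ∈ bc f (⊤ : Submodule R (Fin n → R)) := by
    rw [bc]
    have hx : x = ∑ i, x i • (fv f (Pi.single i 1) : Fin n → S) := by
      funext j
      rw [Finset.sum_apply, Finset.sum_eq_single j]
      · simp [fv]
      · intro i _ hij
        simp [fv, hij.symm]
      · intro h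
        exact absurd (Finset.mem_univ j) h
    rw [hx]
    exact Submodule.sum_mem _ fun i _ => Submodule.smul_mem _ _
      (Submodule.subset_span ⟨_, trivial, rfl⟩)
  exact bcMap_mem f e (fun x _ => h1 x) h

theorem bcMap_proj_eq {n : ℕ} {N : Submodule R (Fin n → R)}
    {e : (Fin n → R) →ₗ[R] (Fin n → R)} (h2 : ∀ x ∈ N, e x = x) {x : Fin n → S}
    (hx : x ∈ bc f N) : bcMap f e x = x := by
  refine bcMap_eq_on f (bcMap f e) LinearMap.id (fun v hv => ?_) hx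
  rw [bcMap_fv, h2 v hv, LinearMap.id_apply]

theorem projective_bc {n : ℕ} (N : Submodule R (Fin n → R))
    (h : Module.Projective R ((Fin n → R) ⧸ N)) :
    Module.Projective S ((Fin n → S) ⧸ bc f N) := by
  obtain ⟨e, h1, h2⟩ := exists_proj N h
  exact projective_quot_of_retraction _ (bcMap f e) (bcMap_proj_mem f h1)
    fun x hx => bcMap_proj_eq f h2 hx

/-- base change of an object -/
def QP.bcObj (P : QP R) : QP S := ⟨P.n, bc f P.M, projective_bc f P.M P.proj⟩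

variable {P P' P'' : QP R}

/-- the domain of a morphism as a submodule of `R ^ n` -/
def domAmb (φ : QHom R P.M P'.M) : Submodule R (Fin P'.n → R) := φ.dom.map P'.M.subtype

theorem mem_domAmb {φ : QHom R P.M P'.M} {x : Fin P'.n → R} :
    x ∈ domAmb φ ↔ ∃ h : x ∈ P'.M, (⟨x, h⟩ : P'.M) ∈ φ.dom := by
  constructor
  · rintro ⟨⟨y, hy⟩, h, rfl⟩
    exact ⟨hy, h⟩
  · rintro ⟨h, h'⟩
    exact ⟨⟨x, h⟩, h', rfl⟩

theorem domAmb_le (φ : QHom R P.M P'.M) : domAmb φ ≤ P'.M := by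
  rintro _ ⟨⟨y, hy⟩, -, rfl⟩
  exact hy

/-- the linear maps which describe a morphism: a projection `e` onto the domain, an extension `T`
of the surjection, and a section `s` of it -/
theorem exists_amb (φ : QHom R P.M P'.M) :
    ∃ (e : (Fin P'.n → R) →ₗ[R] (Fin P'.n → R)) (T : (Fin P'.n → R) →ₗ[R] (Fin P.n → R))
      (s : (Fin P.n → R) →ₗ[R] (Fin P'.n → R)),
      (∀ x, e x ∈ domAmb φ) ∧ (∀ x ∈ domAmb φ, e x = x) ∧
      (∀ x (hx : x ∈ φ.dom), T x = φ.fn ⟨x, hx⟩) ∧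
      (∀ x ∈ P.M, s x ∈ domAmb φ) ∧ ∀ x ∈ P.M, T (s x) = x := by
  obtain ⟨e', he1, he2⟩ := exists_proj P'.M P'.proj
  obtain ⟨-, r', -, -, hr'⟩ := exists_split P'.M P'.proj
  obtain ⟨-, r, -, -, hr⟩ := exists_split φ.dom φ.proj
  obtain ⟨-, r₀, -, -, hr₀⟩ := exists_split P.M P.proj
  obtain ⟨s, hs⟩ := LinearMap.exists_rightInverse_of_surjective φ.fn
    (LinearMap.range_eq_top.2 φ.surj)
  have hs' : ∀ a, φ.fn (s a) = a := fun a => congrArg (fun l => l a) hs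
  have hT : ∀ (x : P'.M) (hx : x ∈ φ.dom),
      (P.M.subtype ∘ₗ φ.fn ∘ₗ r ∘ₗ r') x = φ.fn ⟨x, hx⟩ := by
    intro x hx
    have e1 : r' (x : Fin P'.n → R) = x := hr' x
    have e2 : r x = ⟨x, hx⟩ := hr ⟨x, hx⟩
    rw [LinearMap.comp_apply, LinearMap.comp_apply, LinearMap.comp_apply, e1, e2]
    rfl
  refine ⟨P'.M.subtype ∘ₗ φ.dom.subtype ∘ₗ r ∘ₗ r', P.M.subtype ∘ₗ φ.fn ∘ₗ r ∘ₗ r',
    P'.M.subtype ∘ₗ φ.dom.subtype ∘ₗ s ∘ₗ r₀, fun x => ⟨_, (r (r' x)).2, rfl⟩, ?_, hT,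
    fun x _ => ⟨_, (s (r₀ x)).2, rfl⟩, ?_⟩
  · rintro x hx
    obtain ⟨h, h'⟩ := mem_domAmb.1 hx
    have e1 : r' x = ⟨x, h⟩ := hr' ⟨x, h⟩
    have e2 : r (⟨x, h⟩ : P'.M) = ⟨⟨x, h⟩, h'⟩ := hr ⟨⟨x, h⟩, h'⟩
    rw [LinearMap.comp_apply, LinearMap.comp_apply, LinearMap.comp_apply, e1, e2]
    rfl
  · intro x hx
    have e1 : r₀ x = ⟨x, hx⟩ := hr₀ ⟨x, hx⟩
    have e2 := hT (s ⟨x, hx⟩) (s ⟨x, hx⟩).2
    rw [LinearMap.comp_apply (P'.M.subtype), LinearMap.comp_apply (φ.dom.subtype),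
      LinearMap.comp_apply s, e1]
    refine e2.trans ?_
    rw [Subtype.coe_eta, hs']

/-- an extension of the surjection of a morphism to the ambient free modules -/
noncomputable def amb (φ : QHom R P.M P'.M) : (Fin P'.n → R) →ₗ[R] (Fin P.n → R) :=
  (exists_amb φ).choose_spec.choose

theorem exists_amb' (φ : QHom R P.M P'.M) :
    ∃ (e : (Fin P'.n → R) →ₗ[R] (Fin P'.n → R)) (s : (Fin P.n → R) →ₗ[R] (Fin P'.n → R)),
      (∀ x, e x ∈ domAmb φ) ∧ (∀ x ∈ domAmb φ, e x = x) ∧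
      (∀ x (hx : x ∈ φ.dom), amb φ x = φ.fn ⟨x, hx⟩) ∧
      (∀ x ∈ P.M, s x ∈ domAmb φ) ∧ ∀ x ∈ P.M, amb φ (s x) = x :=
  ⟨_, _, (exists_amb φ).choose_spec.choose_spec.choose_spec⟩

theorem amb_apply (φ : QHom R P.M P'.M) {x : Fin P'.n → R} (h : x ∈ P'.M)
    (hx : (⟨x, h⟩ : P'.M) ∈ φ.dom) : amb φ x = φ.fn ⟨⟨x, h⟩, hx⟩ := by
  obtain ⟨e, s, -, -, h3, -⟩ := exists_amb' φ
  exact h3 ⟨x, h⟩ hx

theorem amb_mem (φ : QHom R P.M P'.M) {x : Fin P'.n → R} (h : x ∈ domAmb φ) :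
    amb φ x ∈ P.M := by
  obtain ⟨h1, h2⟩ := mem_domAmb.1 h
  rw [amb_apply φ h1 h2]
  exact Subtype.property _

/-- base change of a morphism -/
noncomputable def QP.bcHom (φ : QHom R P.M P'.M) :
    QHom S (QP.bcObj f P).M (QP.bcObj f P').M where
  dom := (bc f (domAmb φ)).comap (bc f P'.M).subtype
  proj := by
    obtain ⟨e, s, h1, h2, h3, h4, h5⟩ := exists_amb' φ
    refine projective_quot_of_retraction _
      (LinearMap.restrict (bcMap f e) (p := bc f P'.M) (q := bc f P'.M)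
        (fun x _ => bc_mono f (domAmb_le φ) (bcMap_proj_mem f h1 x))) (fun x => ?_) fun x hx => ?_
    · exact bcMap_proj_mem f h1 _
    · exact Subtype.ext (bcMap_proj_eq f h2 hx)
  fn := LinearMap.codRestrict (bc f P.M) (bcMap f (amb φ) ∘ₗ (bc f P'.M).subtype ∘ₗ
      Submodule.subtype _) fun x => bcMap_mem f (amb φ) (fun _ h => amb_mem φ h) x.2
  surj := by
    obtain ⟨e, s, h1, h2, h3, h4, h5⟩ := exists_amb' φ
    rintro ⟨y, hy⟩
    have hm : bcMap f s y ∈ bc f (domAmb φ) := bcMap_mem f s h4 hy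
    refine ⟨⟨⟨bcMap f s y, bc_mono f (domAmb_le φ) hm⟩, hm⟩, Subtype.ext ?_⟩
    change bcMap f (amb φ) (bcMap f s y) = y
    refine bcMap_eq_on f (bcMap f (amb φ) ∘ₗ bcMap f s) LinearMap.id (fun v hv => ?_) hy
    rw [LinearMap.comp_apply, bcMap_fv, bcMap_fv, h5 v hv, LinearMap.id_apply]

theorem QP.mem_bcHom_dom (φ : QHom R P.M P'.M) (x : (QP.bcObj f P').M) :
    x ∈ (QP.bcHom f φ).dom ↔ x.1 ∈ bc f (domAmb φ) := Iff.rfl

theorem QP.bcHom_fn (φ : QHom R P.M P'.M) (x : (QP.bcObj f P').M)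
    (hx : x ∈ (QP.bcHom f φ).dom) :
    ((QP.bcHom f φ).fn ⟨x, hx⟩).1 = bcMap f (amb φ) x.1 := rfl

/-- The values of the base change of a morphism: `f_* φ` maps `f(x)` to `f(φ(x))`. -/
theorem QP.bcHom_fn_fv (φ : QHom R P.M P'.M) (x : P'.M) (hx : x ∈ φ.dom)
    (h : (⟨fv f x.1, fv_mem_bc f x.2⟩ : (QP.bcObj f P').M) ∈ (QP.bcHom f φ).dom) :
    ((QP.bcHom f φ).fn ⟨_, h⟩).1 = fv f (φ.fn ⟨x, hx⟩).1 := by
  rw [QP.bcHom_fn]
  change bcMap f (amb φ) (fv f x.1) = _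
  rw [bcMap_fv, amb_apply φ x.2 hx]

theorem domAmb_id : domAmb (P := P) (P' := P) (QHom.id R P.M) = P.M := by
  ext x
  rw [mem_domAmb]
  exact ⟨fun h => h.1, fun h => ⟨h, trivial⟩⟩

theorem QP.bcHom_id (P : QP R) :
    QP.bcHom f (P := P) (P' := P) (QHom.id R P.M) = QHom.id S (QP.bcObj f P).M := by
  refine QHom.ext' (fun x => ⟨fun _ => trivial, fun _ => ?_⟩) fun x hx _ => Subtype.ext ?_
  · change x.1 ∈ bc f (domAmb (P := P) (P' := P) (QHom.id R P.M))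
    rw [domAmb_id]
    exact x.2
  · change bcMap f (amb (P := P) (P' := P) (QHom.id R P.M)) x.1 = LinearMap.id (R := S) x.1
    refine bcMap_eq_on f _ LinearMap.id (fun v hv => ?_) x.2
    rw [bcMap_fv, amb_apply (P := P) (P' := P) (QHom.id R P.M) hv trivial]
    rfl

theorem mem_bc_comp (φ : QHom R P.M P'.M) (ψ : QHom R P'.M P''.M) (x : Fin P''.n → S) :
    x ∈ bc f (domAmb (P := P) (P' := P'') (QHom.comp φ ψ)) ↔
      x ∈ bc f (domAmb ψ) ∧ bcMap f (amb ψ) x ∈ bc f (domAmb φ) := by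
  constructor
  · intro h
    refine ⟨bc_mono f (fun y hy => ?_) h, bcMap_mem f (amb ψ) (fun y hy => ?_) h⟩
    · obtain ⟨h1, h2, h3⟩ := mem_domAmb.1 hy
      exact mem_domAmb.2 ⟨h1, h2⟩
    · obtain ⟨h1, h2, h3⟩ := mem_domAmb.1 hy
      rw [amb_apply ψ h1 h2]
      exact mem_domAmb.2 ⟨Subtype.property _, h3⟩
  · rintro ⟨h, h'⟩
    obtain ⟨e, s, h1, h2, h3, h4, h5⟩ := exists_amb' ψ
    have e1 : x = bcMap f (LinearMap.id - s ∘ₗ amb ψ) x + bcMap f s (bcMap f (amb ψ) x) := by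
      have : x = LinearMap.id (R := S) x := rfl
      rw [← LinearMap.comp_apply, ← LinearMap.add_apply]
      nth_rewrite 1 [this]
      refine bcMap_eq_on f _ _ (fun v _ => ?_) h
      rw [LinearMap.add_apply, LinearMap.comp_apply, bcMap_fv, bcMap_fv, bcMap_fv, ← fv_add,
        LinearMap.id_apply, LinearMap.sub_apply, LinearMap.comp_apply, LinearMap.id_apply,
        sub_add_cancel]
    rw [e1]
    refine add_mem (bcMap_mem f _ (fun y hy => ?_) h) (bcMap_mem f _ (fun y hy => ?_) h')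
    · obtain ⟨g1, g2⟩ := mem_domAmb.1 hy
      have g3 := amb_mem ψ hy
      obtain ⟨g4, g5⟩ := mem_domAmb.1 (h4 _ g3)
      have g6 : y - s (amb ψ y) ∈ P''.M := sub_mem g1 g4
      have g7 : (⟨y - s (amb ψ y), g6⟩ : P''.M) ∈ ψ.dom := sub_mem g2 g5
      refine mem_domAmb.2 ⟨g6, g7, ?_⟩
      have g8 : ψ.fn ⟨_, g7⟩ = 0 := by
        apply Subtype.ext
        rw [← amb_apply ψ g6 g7, map_sub, h5 _ g3, sub_self]
        rfl
      have g9 : ψ.fn ⟨_, g7⟩ ∈ φ.dom := by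
        rw [g8]
        exact zero_mem _
      exact g9
    · obtain ⟨g1, g2⟩ := mem_domAmb.1 hy
      obtain ⟨g4, g5⟩ := mem_domAmb.1 (h4 _ g1)
      refine mem_domAmb.2 ⟨g4, g5, ?_⟩
      have g8 : ψ.fn ⟨_, g5⟩ = ⟨y, g1⟩ := by
        apply Subtype.ext
        rw [← amb_apply ψ g4 g5, h5 _ g1]
      have g9 : ψ.fn ⟨_, g5⟩ ∈ φ.dom := by
        rw [g8]
        exact g2
      exact g9

theorem QP.bcHom_comp (φ : QHom R P.M P'.M) (ψ : QHom R P'.M P''.M) :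
    QP.bcHom f (P := P) (P' := P'') (QHom.comp φ ψ) =
      QHom.comp (QP.bcHom f φ) (QP.bcHom f ψ) := by
  refine QHom.ext' (fun x => ?_) fun x hx hx' => Subtype.ext ?_
  · refine (mem_bc_comp f φ ψ x.1).trans ?_
    exact ⟨fun h => ⟨h.1, h.2⟩, fun h => ⟨h.1, h.2⟩⟩
  · change bcMap f (amb (P := P) (P' := P'') (QHom.comp φ ψ)) x.1 =
      (bcMap f (amb φ) ∘ₗ bcMap f (amb ψ)) x.1
    refine bcMap_eq_on f _ (bcMap f (amb φ) ∘ₗ bcMap f (amb ψ)) (fun v hv => ?_) hx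
    obtain ⟨h1, h2, h3⟩ := mem_domAmb.1 hv
    have h4 : (⟨(ψ.fn ⟨⟨v, h1⟩, h2⟩).1, (ψ.fn ⟨⟨v, h1⟩, h2⟩).2⟩ : P'.M) ∈ φ.dom := h3
    have h5 : (⟨v, h1⟩ : P''.M) ∈ (QHom.comp φ ψ).dom := ⟨h2, h3⟩
    rw [LinearMap.comp_apply, bcMap_fv, bcMap_fv, bcMap_fv, amb_apply ψ h1 h2,
      amb_apply φ _ h4, amb_apply (P := P) (P' := P'') (QHom.comp φ ψ) h1 h5]
    rfl

/-- the base change functor `Q P(R) ⥤ Q P(S)`, `M ↦ S ⊗ M` -/
noncomputable def QP.baseChange : QP R ⥤ QP S where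
  obj P := QP.bcObj f P
  map φ := QP.bcHom f φ
  map_id P := QP.bcHom_id f P
  map_comp φ ψ := QP.bcHom_comp f φ ψ

theorem QP.bcObj_zero : QP.bcObj f (QP.zero R) = QP.zero S := by
  unfold QP.bcObj QP.zero
  congr 1
  exact Subsingleton.elim _ _

theorem bc_top (n : ℕ) : bc f (⊤ : Submodule R (Fin n → R)) = ⊤ := by
  rw [eq_top_iff]
  intro x _
  have h := bcMap_proj_mem f (N := (⊤ : Submodule R (Fin n → R))) (e := LinearMap.id)
    (fun _ => trivial) x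
  have h' : bcMap f (LinearMap.id (R := R) (M := Fin n → R)) x = x := by
    have : bcMap f (LinearMap.id (R := R) (M := Fin n → R)) = LinearMap.id := by
      rw [bcMap, LinearMap.toMatrix'_id, Matrix.map_one f (map_zero f) (map_one f),
        Matrix.toLin'_one]
    rw [this, LinearMap.id_apply]
  rwa [h'] at h

theorem QP.bcObj_free (n : ℕ) : QP.bcObj f (QP.free R n) = QP.free S n := by
  unfold QP.bcObj QP.free
  congr 1
  exact bc_top f n

end BaseChange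

end Vale.Agent.P178.H847
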