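import Vale.Agent.P178.H847.EvalB

/-!
# The values of the cocycle on the suspension simplices
-/

open CategoryTheory Simplicial
open scoped TensorProduct
open Vale.Agent.P178.H873
open Vale.Agent.P178.H51 (spData spFun glAut glAut_apply topAut topAut_coe)
open Vale.Agent.P178.H911 (Dg Dg.mul)

namespace Vale.Agent.P178.H847

universe u w

variable {R : Type u} {k : Type w} [CommRing R] [Field k] [Algebra R k]
variable {ι : Type} [Fintype ι] [DecidableEq ι] {m : ℕ} {e : ι ≃ Fin m}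
variable {D : Fin 3 → Derivation ℤ R k} {d : QData D}

section chain

variable {C : Type u} [Category.{u} C] {X0 X1 X2 X3 X4 : C} (f : X0 ⟶ X1) (g : X1 ⟶ X2)
  (h : X2 ⟶ X3) (i : X3 ⟶ X4)

theorem mk4_01 : (ComposableArrows.mk₄ f g h i).map (homOfLE (show (0 : Fin 5) ≤ 1 by decide)) = f :=
  rfl

theorem mk4_02 : (ComposableArrows.mk₄ f g h i).map (homOfLE (show (0 : Fin 5) ≤ 2 by decide)) =
    f ≫ g := rfl

theorem mk4_03 : (ComposableArrows.mk₄ f g h i).map (homOfLE (show (0 : Fin 5) ≤ 3 by decide)) =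
    f ≫ g ≫ h := rfl

theorem mk4_04 : (ComposableArrows.mk₄ f g h i).map (homOfLE (show (0 : Fin 5) ≤ 4 by decide)) =
    f ≫ g ≫ h ≫ i := rfl

theorem mk4_14 : (ComposableArrows.mk₄ f g h i).map (homOfLE (show (1 : Fin 5) ≤ 4 by decide)) =
    g ≫ h ≫ i := rfl

theorem mk4_24 : (ComposableArrows.mk₄ f g h i).map (homOfLE (show (2 : Fin 5) ≤ 4 by decide)) =
    h ≫ i := rfl

theorem mk4_34 : (ComposableArrows.mk₄ f g h i).map (homOfLE (show (3 : Fin 5) ≤ 4 by decide)) =
    i := rfl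

end chain

/-- the value on the simplices which start at the south pole -/
theorem qcoc_south (g1 g2 g3 : St ι R) :
    qcoc d (ComposableArrows.mk₄ (spData R e).s ((spData R e).ρ g1) ((spData R e).ρ g2)
      ((spData R e).ρ g3)) = 0 := by
  have hs : (spData R e).s ≫ (spData R e).ρ g1 ≫ (spData R e).ρ g2 ≫ (spData R e).ρ g3 =
      (spData R e).s := by
    rw [← Category.assoc, (spData R e).s_ρ, ← Category.assoc, (spData R e).s_ρ,
      (spData R e).s_ρ]
  have hsub : ∀ f : (spData R e).S ⟶ (spData R e).P, f = (spData R e).s →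
      Subsingleton (KM f) := by
    rintro f rfl
    refine ⟨fun x y => Subtype.ext ?_⟩
    have hx : x.1 = 0 := (Submodule.mem_bot R).1 x.2.1
    have hy : y.1 = 0 := (Submodule.mem_bot R).1 y.2.1
    exact hx.trans hy.symm
  exact @cub_of_subsingleton R k _ _ _ D d (Fin 5) _ (ComposableArrows.mk₄ (spData R e).s
    ((spData R e).ρ g1) ((spData R e).ρ g2) ((spData R e).ρ g3)) 0 1 2 3 4 (by decide)
    (by decide) (by decide) (by decide) (hsub _ hs)

/-- the value on the simplices which start at the north pole -/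
theorem qcoc_north (hd : ∀ l, Tw (crd e (topM R m)) 1 (d.conn (topM R m) l)) {g1 g2 g3 : St ι R}
    {χ1 χ2 χ3 : ι → Rˣ} (h1 : Dg g1 χ1) (h2 : Dg g2 χ2) (h3 : Dg g3 χ3) :
    qcoc d (ComposableArrows.mk₄ (spData R e).n ((spData R e).ρ g1) ((spData R e).ρ g2)
      ((spData R e).ρ g3)) =
      ∑ v, dlo (D 0) (χ1 v) * dlo (D 1) (χ2 v) * dlo (D 2) (χ3 v) := by
  have k2 : (spData R e).n ≫ (spData R e).ρ g1 = (spData R e).n := (spData R e).n_ρ g1
  have k3 : (spData R e).n ≫ (spData R e).ρ g1 ≫ (spData R e).ρ g2 = (spData R e).n := by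
    rw [← Category.assoc, k2, (spData R e).n_ρ]
  have k4 : (spData R e).n ≫ (spData R e).ρ g1 ≫ (spData R e).ρ g2 ≫ (spData R e).ρ g3 =
      (spData R e).n := by
    rw [← Category.assoc, k2, ← Category.assoc, (spData R e).n_ρ, (spData R e).n_ρ]
  have m2 : (spData R e).ρ g2 ≫ (spData R e).ρ g3 = (spData R e).ρ (g2 * g3) :=
    ((spData R e).ρ_mul _ _).symm
  have m1 : (spData R e).ρ g1 ≫ (spData R e).ρ g2 ≫ (spData R e).ρ g3 =
      (spData R e).ρ (g1 * (g2 * g3)) := by
    rw [m2, (spData R e).ρ_mul g1]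
  have hbij : ∀ f : QP.zero R ⟶ QP.free R m, f = topM R m →
      Function.Bijective (fib (M := KM f) k (crd e f)) := by
    rintro f rfl
    exact fib_bijective' _ (crd_bijective e)
  have key := cub_eq d (ι := Fin 5) (κ := ι) (ComposableArrows.mk₄ (spData R e).n
    ((spData R e).ρ g1) ((spData R e).ρ g2) ((spData R e).ρ g3)) (i0 := 0) (i1 := 1) (i2 := 2)
    (i3 := 3) (i4 := 4) (by decide) (by decide) (by decide) (by decide)
    (crd e (X := QP.zero R) (spData R e).n)
    (crd e (X := QP.zero R) ((spData R e).n ≫ (spData R e).ρ g1))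
    (crd e (X := QP.zero R) ((spData R e).n ≫ (spData R e).ρ g1 ≫ (spData R e).ρ g2))
    (crd e (X := QP.zero R)
      ((spData R e).n ≫ (spData R e).ρ g1 ≫ (spData R e).ρ g2 ≫ (spData R e).ρ g3))
    (hbij _ k4) (χ1 * (χ2 * χ3)) (χ2 * χ3) χ3
    (fun l => tw_conn hd (f := (spData R e).n) rfl l) (fun l => tw_conn hd k2 l)
    (fun l => tw_conn hd k3 l) (fun l => tw_conn hd k4 l)
    (fun y i => crd_pi (f := (spData R e).n) rfl (h1.mul (h2.mul h3)) m1 y i)
    (fun y i => crd_pi _ (h2.mul h3) m2 y i)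
    (fun y i => crd_pi _ h3 rfl y i)
  refine Eq.trans key (Finset.sum_congr rfl fun v _ => ?_)
  simp only [Pi.mul_apply, dlo_mul]
  ring

end Vale.Agent.P178.H847
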