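import Mathlib

/-!
# Quillen's Q-construction of the category of finitely generated projective modules
-/

open CategoryTheory

namespace Vale.Agent.P178.H847

universe u v w

/-- a submodule with projective quotient is a direct summand -/
theorem exists_split {R : Type u} [CommRing R] {M : Type v} [AddCommGroup M] [Module R M]
    (N : Submodule R M) (h : Module.Projective R (M ⧸ N)) :
    ∃ (σ : (M ⧸ N) →ₗ[R] M) (r : M →ₗ[R] N), (∀ a, N.mkQ (σ a) = a) ∧
      (∀ m, (r m : M) = m - σ (N.mkQ m)) ∧ ∀ x : N, r x = x := by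
  obtain ⟨σ, hσ⟩ := LinearMap.exists_rightInverse_of_surjective N.mkQ
    (LinearMap.range_eq_top.2 (Submodule.mkQ_surjective _))
  have hσ' : ∀ a, N.mkQ (σ a) = a := fun a => congrArg (fun l => l a) hσ
  have hr : ∀ m, (LinearMap.id - σ ∘ₗ N.mkQ : M →ₗ[R] M) m ∈ N := fun m => by
    have : N.mkQ ((LinearMap.id - σ ∘ₗ N.mkQ : M →ₗ[R] M) m) = 0 := by
      rw [LinearMap.sub_apply, LinearMap.comp_apply, map_sub, hσ', LinearMap.id_apply, sub_self]
    exact (Submodule.Quotient.mk_eq_zero N).1 this
  refine ⟨σ, LinearMap.codRestrict N (LinearMap.id - σ ∘ₗ N.mkQ) hr, hσ', fun m => rfl,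
    fun x => Subtype.ext ?_⟩
  have hx : N.mkQ (x : M) = 0 := (Submodule.Quotient.mk_eq_zero N).2 x.2
  rw [LinearMap.codRestrict_apply, LinearMap.sub_apply, LinearMap.comp_apply, hx, map_zero,
    LinearMap.id_apply, sub_zero]

section QHom

/-- A morphism `M ⟶ M'` of Quillen's category `Q P(R)`: an isomorphism class of diagrams
`M ↞ N ↣ M'` with `N → M` surjective and `N → M'` injective with projective cokernel. The class is
determined by the image `dom` of `N` in `M'` and by the surjection `fn : dom → M`, so that a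
morphism is a submodule `dom` of `M'` with projective quotient together with a surjective linear
map `fn : dom → M`. -/
structure QHom (R : Type u) [CommRing R] (M : Type v) (M' : Type w) [AddCommGroup M] [Module R M]
    [AddCommGroup M'] [Module R M'] where
  /-- the admissible subobject of the target -/
  dom : Submodule R M'
  proj : Module.Projective R (M' ⧸ dom)
  /-- the admissible epimorphism onto the source -/
  fn : dom →ₗ[R] M
  surj : Function.Surjective fn

namespace QHom

variable {R : Type u} [CommRing R]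
variable {M M' M'' M''' : Type v} [AddCommGroup M] [Module R M] [AddCommGroup M'] [Module R M']
  [AddCommGroup M''] [Module R M''] [AddCommGroup M'''] [Module R M''']

theorem ext' {f g : QHom R M M'} (h1 : ∀ x, x ∈ f.dom ↔ x ∈ g.dom)
    (h2 : ∀ x (hx : x ∈ f.dom) (hx' : x ∈ g.dom), f.fn ⟨x, hx⟩ = g.fn ⟨x, hx'⟩) : f = g := by
  cases f with
  | mk d p fn s =>
    cases g with
    | mk d' p' fn' s' =>
      obtain rfl : d = d' := Submodule.ext h1
      have : fn = fn' := by
        ext ⟨x, hx⟩
        exact h2 x hx hx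
      subst this
      rfl

/-- the identity -/
def id (R : Type u) [CommRing R] (M : Type v) [AddCommGroup M] [Module R M] : QHom R M M where
  dom := ⊤
  proj := inferInstance
  fn := (⊤ : Submodule R M).subtype
  surj := fun x => ⟨⟨x, trivial⟩, rfl⟩

/-- the domain of the composite: the elements `x` of `g.dom` with `g.fn x ∈ f.dom` -/
def compDom (f : QHom R M M') (g : QHom R M' M'') : Submodule R M'' where
  carrier := {x | ∃ h : x ∈ g.dom, g.fn ⟨x, h⟩ ∈ f.dom}
  add_mem' := by
    rintro x y ⟨hx, hx'⟩ ⟨hy, hy'⟩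
    refine ⟨add_mem hx hy, ?_⟩
    have : g.fn ⟨x + y, add_mem hx hy⟩ = g.fn ⟨x, hx⟩ + g.fn ⟨y, hy⟩ := by
      rw [← map_add]; rfl
    rw [this]
    exact add_mem hx' hy'
  zero_mem' := ⟨zero_mem _, by
    have : g.fn ⟨0, zero_mem _⟩ = 0 := map_zero g.fn
    rw [this]
    exact zero_mem _⟩
  smul_mem' := by
    rintro r x ⟨hx, hx'⟩
    refine ⟨Submodule.smul_mem _ r hx, ?_⟩
    have : g.fn ⟨r • x, Submodule.smul_mem _ r hx⟩ = r • g.fn ⟨x, hx⟩ := by
      rw [← map_smul]; rfl
    rw [this]
    exact Submodule.smul_mem _ r hx'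

theorem mem_compDom {f : QHom R M M'} {g : QHom R M' M''} {x : M''} :
    x ∈ compDom f g ↔ ∃ h : x ∈ g.dom, g.fn ⟨x, h⟩ ∈ f.dom := Iff.rfl

theorem projective_compDom (f : QHom R M M') (g : QHom R M' M'') :
    Module.Projective R (M'' ⧸ compDom f g) := by
  have := f.proj
  have := g.proj
  obtain ⟨σ, r, hσ', hr, hr'⟩ := exists_split g.dom g.proj
  have hsurj : Function.Surjective (f.dom.mkQ ∘ₗ g.fn) :=
    (Submodule.mkQ_surjective _).comp g.surj
  obtain ⟨κ, hκ⟩ := LinearMap.exists_rightInverse_of_surjective (f.dom.mkQ ∘ₗ g.fn)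
    (LinearMap.range_eq_top.2 hsurj)
  have hκ' : ∀ b, f.dom.mkQ (g.fn (κ b)) = b := fun b => congrArg (fun l => l b) hκ
  let i₀ : M'' →ₗ[R] (M'' ⧸ g.dom) × (M' ⧸ f.dom) :=
    LinearMap.prod g.dom.mkQ (f.dom.mkQ ∘ₗ g.fn ∘ₗ r)
  have hi₀ : compDom f g ≤ LinearMap.ker i₀ := by
    rintro x ⟨hx, hx'⟩
    have e1 : g.dom.mkQ x = 0 := (Submodule.Quotient.mk_eq_zero _).2 hx
    have e2 : r x = ⟨x, hx⟩ := hr' ⟨x, hx⟩
    have e3 : f.dom.mkQ (g.fn ⟨x, hx⟩) = 0 := (Submodule.Quotient.mk_eq_zero _).2 hx'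
    rw [LinearMap.mem_ker]
    change (g.dom.mkQ x, f.dom.mkQ (g.fn (r x))) = 0
    rw [e1, e2, e3]
    rfl
  let i : (M'' ⧸ compDom f g) →ₗ[R] (M'' ⧸ g.dom) × (M' ⧸ f.dom) :=
    (compDom f g).liftQ i₀ hi₀
  let s : (M'' ⧸ g.dom) × (M' ⧸ f.dom) →ₗ[R] (M'' ⧸ compDom f g) :=
    LinearMap.coprod ((compDom f g).mkQ ∘ₗ σ) ((compDom f g).mkQ ∘ₗ g.dom.subtype ∘ₗ κ)
  refine Module.Projective.of_split i s ?_
  ext m
  have key : m - (σ (g.dom.mkQ m) + (κ (f.dom.mkQ (g.fn (r m))) : M'')) ∈ compDom f g := by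
    have e : m - (σ (g.dom.mkQ m) + (κ (f.dom.mkQ (g.fn (r m))) : M'')) =
        ((r m - κ (f.dom.mkQ (g.fn (r m))) : g.dom) : M'') := by
      rw [Submodule.coe_sub, hr, sub_sub]
    rw [e]
    refine ⟨Subtype.property _, ?_⟩
    rw [Subtype.coe_eta]
    refine (Submodule.Quotient.mk_eq_zero _).1 ?_
    change f.dom.mkQ _ = 0
    rw [map_sub, map_sub, hκ', sub_self]
  exact ((Submodule.Quotient.eq (compDom f g)).2 key).symm

/-- composition of partial maps -/
def comp (f : QHom R M M') (g : QHom R M' M'') : QHom R M M'' where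
  dom := compDom f g
  proj := projective_compDom f g
  fn :=
    { toFun := fun x => f.fn ⟨g.fn ⟨x.1, x.2.1⟩, x.2.2⟩
      map_add' := fun x y => by
        rw [← map_add]
        congr 1
        apply Subtype.ext
        change g.fn _ = g.fn _ + g.fn _
        rw [← map_add]
        rfl
      map_smul' := fun r x => by
        rw [RingHom.id_apply, ← map_smul]
        congr 1
        apply Subtype.ext
        change g.fn _ = r • g.fn _
        rw [← map_smul]
        rfl }
  surj := fun m => by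
    obtain ⟨⟨y, hy⟩, rfl⟩ := f.surj m
    obtain ⟨⟨x, hx⟩, rfl⟩ := g.surj y
    exact ⟨⟨x, hx, hy⟩, rfl⟩

theorem comp_fn (f : QHom R M M') (g : QHom R M' M'') (x : M'') (h : x ∈ (comp f g).dom) :
    (comp f g).fn ⟨x, h⟩ = f.fn ⟨g.fn ⟨x, h.1⟩, h.2⟩ := rfl

theorem mem_comp_dom {f : QHom R M M'} {g : QHom R M' M''} {x : M''} :
    x ∈ (comp f g).dom ↔ ∃ h : x ∈ g.dom, g.fn ⟨x, h⟩ ∈ f.dom := Iff.rfl

theorem id_comp (f : QHom R M M') : comp (id R M) f = f :=
  ext' (fun _ => ⟨fun h => h.1, fun h => ⟨h, trivial⟩⟩) fun _ _ _ => rfl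

theorem comp_id (f : QHom R M M') : comp f (id R M') = f :=
  ext' (fun _ => ⟨fun h => h.2, fun h => ⟨trivial, h⟩⟩) fun _ _ _ => rfl

theorem assoc (f : QHom R M M') (g : QHom R M' M'') (h : QHom R M'' M''') :
    comp (comp f g) h = comp f (comp g h) :=
  ext' (fun _ => ⟨fun hx => ⟨⟨hx.1, hx.2.1⟩, hx.2.2⟩, fun hx => ⟨hx.1.1, hx.1.2, hx.2⟩⟩)
    fun _ _ _ => rfl

/-- the morphism of the zero submodule of `M`: the source is any trivial module -/
def ofBot (R : Type u) [CommRing R] (Z M : Type v) [AddCommGroup Z] [Module R Z] [AddCommGroup M]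
    [Module R M] [Subsingleton Z] [Module.Projective R M] : QHom R Z M where
  dom := ⊥
  proj := Module.Projective.of_equiv (Submodule.quotEquivOfEqBot (⊥ : Submodule R M) rfl).symm
  fn := 0
  surj := fun _ => ⟨0, Subsingleton.elim _ _⟩

/-- the surjection of `M` to a trivial module -/
def ofTop (R : Type u) [CommRing R] (Z M : Type v) [AddCommGroup Z] [Module R Z] [AddCommGroup M]
    [Module R M] [Subsingleton Z] : QHom R Z M where
  dom := ⊤
  proj := inferInstance
  fn := 0
  surj := fun _ => ⟨0, Subsingleton.elim _ _⟩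

/-- the morphism given by an isomorphism (of the target with the source) -/
def ofIso (e : M' ≃ₗ[R] M) : QHom R M M' where
  dom := ⊤
  proj := inferInstance
  fn := e.toLinearMap ∘ₗ (⊤ : Submodule R M').subtype
  surj := fun x => ⟨⟨e.symm x, trivial⟩, by simp⟩

theorem ofIso_comp (e : M' ≃ₗ[R] M) (e' : M'' ≃ₗ[R] M') :
    comp (ofIso e) (ofIso e') = ofIso (e'.trans e) :=
  ext' (fun _ => ⟨fun _ => trivial, fun _ => ⟨trivial, trivial⟩⟩) fun _ _ _ => rfl

theorem ofIso_refl : ofIso (LinearEquiv.refl R M) = id R M :=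
  ext' (fun _ => Iff.rfl) fun _ _ _ => rfl

theorem ofBot_comp {Z : Type v} [AddCommGroup Z] [Module R Z] [Subsingleton Z]
    [Module.Projective R M] [Module.Projective R M'] (e : M' ≃ₗ[R] M) :
    comp (ofBot R Z M) (ofIso e) = ofBot R Z M' := by
  refine ext' (fun x => ⟨fun h => ?_, fun h => ⟨trivial, ?_⟩⟩) fun _ _ _ => Subsingleton.elim _ _
  · have h2 : e x ∈ (⊥ : Submodule R M) := h.2
    have h3 : e x = 0 := by simpa using h2
    change x ∈ (⊥ : Submodule R M')
    simpa using h3
  · have h2 : x = 0 := by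
      have : x ∈ (⊥ : Submodule R M') := h
      simpa using this
    subst h2
    change e 0 ∈ (⊥ : Submodule R M)
    simp

theorem ofTop_comp {Z : Type v} [AddCommGroup Z] [Module R Z] [Subsingleton Z]
    (e : M' ≃ₗ[R] M) : comp (ofTop R Z M) (ofIso e) = ofTop R Z M' :=
  ext' (fun _ => ⟨fun _ => trivial, fun _ => ⟨trivial, trivial⟩⟩) fun _ _ _ =>
    Subsingleton.elim _ _

end QHom

end QHom

/-- The objects of Quillen's category `Q P(R)`. `P(R)` is the (small) category of the finitely
generated projective `R`-modules which are direct summands `M ⊆ R ^ n` of some `R ^ n`; every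
finitely generated projective `R`-module is isomorphic to one of these. -/
structure QP (R : Type u) [CommRing R] : Type u where
  /-- the rank of the free module -/
  n : ℕ
  /-- the submodule of `R ^ n` -/
  M : Submodule R (Fin n → R)
  proj : Module.Projective R ((Fin n → R) ⧸ M)

namespace QP

variable {R : Type u} [CommRing R]

instance (P : QP R) : Module.Projective R P.M := by
  obtain ⟨σ, r, hσ, hr, hr'⟩ := exists_split P.M P.proj
  exact Module.Projective.of_split P.M.subtype r (LinearMap.ext fun x => hr' x)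

instance (P : QP R) : Module.Finite R P.M := by
  obtain ⟨σ, r, hσ, hr, hr'⟩ := exists_split P.M P.proj
  exact Module.Finite.of_surjective r fun x => ⟨x, hr' x⟩

/-- every finitely generated projective module is isomorphic to an object of `P(R)` -/
theorem exists_equiv (N : Type v) [AddCommGroup N] [Module R N] [Module.Finite R N]
    [Module.Projective R N] : ∃ P : QP R, Nonempty (P.M ≃ₗ[R] N) := by
  obtain ⟨n, f, hf⟩ := Module.Finite.exists_fin' R N
  obtain ⟨g, hg⟩ := LinearMap.exists_rightInverse_of_surjective f (LinearMap.range_eq_top.2 hf)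
  have hg' : ∀ x, f (g x) = x := fun x => congrArg (fun l => l x) hg
  have hinj : Function.Injective g := Function.LeftInverse.injective hg'
  refine ⟨⟨n, LinearMap.range g, ?_⟩, ⟨(LinearEquiv.ofInjective g hinj).symm⟩⟩
  have h0 : LinearMap.range g ≤ LinearMap.ker (LinearMap.id - g ∘ₗ f) := by
    rintro _ ⟨x, rfl⟩
    rw [LinearMap.mem_ker, LinearMap.sub_apply, LinearMap.comp_apply, hg', LinearMap.id_apply,
      sub_self]
  refine Module.Projective.of_split ((LinearMap.range g).liftQ (LinearMap.id - g ∘ₗ f) h0)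
    (LinearMap.range g).mkQ ?_
  refine LinearMap.ext fun a => ?_
  obtain ⟨m, rfl⟩ := Submodule.mkQ_surjective _ a
  have key : m - (m - g (f m)) ∈ LinearMap.range g := by
    rw [sub_sub_cancel]
    exact ⟨_, rfl⟩
  exact ((Submodule.Quotient.eq (LinearMap.range g)).2 key).symm

/-- Quillen's category `Q P(R)` -/
instance category : Category.{u} (QP R) where
  Hom P P' := QHom R P.M P'.M
  id P := QHom.id R P.M
  comp f g := QHom.comp f g
  id_comp := QHom.id_comp
  comp_id := QHom.comp_id
  assoc := QHom.assoc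

/-- the zero module -/
def zero (R : Type u) [CommRing R] : QP R := ⟨0, ⊤, inferInstance⟩

instance : Subsingleton (zero R).M := by
  unfold zero
  infer_instance

/-- the free module -/
def free (R : Type u) [CommRing R] (n : ℕ) : QP R := ⟨n, ⊤, inferInstance⟩

end QP

end Vale.Agent.P178.H847
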