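import Vale.Agent.P178.H873.Nerve

/-!
# Evaluation of the cocycle on chains with coordinates
-/

open CategoryTheory
open scoped TensorProduct
open Vale.Agent.P178.H873

namespace Vale.Agent.P178.H847

universe u w

section Fib

variable {R : Type u} {k : Type w} [CommRing R] [Field k] [Algebra R k]
variable {κ : Type} [Fintype κ] [DecidableEq κ]
variable {M N : Type*} [AddCommGroup M] [Module R M] [AddCommGroup N] [Module R N]

/-- the coordinates of the fibre given by coordinates of the module -/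
noncomputable def fib (k : Type w) [Field k] [Algebra R k] (c : M →ₗ[R] (κ → R)) :
    k ⊗[R] M →ₗ[k] (κ → k) :=
  LinearMap.liftBaseChange k
    { toFun := fun x i => algebraMap R k (c x i)
      map_add' := fun x y => by
        funext i
        rw [map_add, Pi.add_apply, map_add, Pi.add_apply]
      map_smul' := fun r x => by
        funext i
        rw [map_smul, Pi.smul_apply, smul_eq_mul, map_mul, RingHom.id_apply, Pi.smul_apply,
          Algebra.smul_def] }

omit [Fintype κ] [DecidableEq κ] in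
theorem fib_tmul (c : M →ₗ[R] (κ → R)) (a : k) (x : M) (i : κ) :
    fib k c (a ⊗ₜ x) i = a * algebraMap R k (c x i) := rfl

omit [Fintype κ] [DecidableEq κ] in
theorem fib_baseChange {f : M →ₗ[R] N} {c : M →ₗ[R] (κ → R)} {c' : N →ₗ[R] (κ → R)}
    {χ : κ → Rˣ} (h : ∀ x i, c' (f x) i = χ i * c x i) (z : k ⊗[R] M) (i : κ) :
    fib k c' (f.baseChange k z) i = algebraMap R k (χ i) * fib k c z i := by
  induction z using TensorProduct.induction_on with
  | zero => simp
  | tmul a x =>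
    rw [LinearMap.baseChange_tmul, fib_tmul, fib_tmul, h, map_mul]
    ring
  | add x y hx hy => rw [map_add, map_add, Pi.add_apply, hx, hy, map_add, Pi.add_apply, mul_add]

/-- the logarithmic derivative -/
noncomputable def dlo (D : Derivation ℤ R k) (u : Rˣ) : k := algebraMap R k ((u⁻¹ : Rˣ) : R) * D u

theorem unit_mul_inv (k : Type w) [Field k] [Algebra R k] (u : Rˣ) :
    algebraMap R k ((u⁻¹ : Rˣ) : R) * algebraMap R k (u : R) = 1 := by
  rw [← map_mul, Units.inv_mul, map_one]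

theorem dlo_mul (D : Derivation ℤ R k) (a b : Rˣ) : dlo D (a * b) = dlo D a + dlo D b := by
  unfold dlo
  have h1 := unit_mul_inv k a
  have h2 := unit_mul_inv k b
  rw [Units.val_mul, Derivation.leibniz, mul_inv, Units.val_mul, map_mul, Algebra.smul_def,
    Algebra.smul_def]
  linear_combination algebraMap R k ((a⁻¹ : Rˣ) : R) * D (a : R) * h2 +
    algebraMap R k ((b⁻¹ : Rˣ) : R) * D (b : R) * h1

theorem dlo_one (D : Derivation ℤ R k) : dlo D 1 = 0 := by
  have := dlo_mul D 1 1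
  rw [mul_one] at this
  exact left_eq_add.1 this

/-- the connection is given in the coordinates `c` by `x_i ↦ D x_i + dlog(χ_i) x_i` -/
def Tw {D : Derivation ℤ R k} (c : M →ₗ[R] (κ → R)) (χ : κ → Rˣ) (v : Conn D M) : Prop :=
  ∀ x i, fib k c (v.toFun x) i = D (c x i) + dlo D (χ i) * algebraMap R k (c x i)

omit [Fintype κ] [DecidableEq κ] in
theorem Tw.of_rel {D : Derivation ℤ R k} {f : M →ₗ[R] N} {c : M →ₗ[R] (κ → R)}
    {c' : N →ₗ[R] (κ → R)} {χ : κ → Rˣ} (h : ∀ x i, c' (f x) i = χ i * c x i)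
    {v : Conn D M} {w : Conn D N} (hr : Conn.Rel f v w) (hw : Tw c' 1 w) : Tw c χ v := by
  intro x i
  have h1 : fib k c' (w.toFun (f x)) i = fib k c' (f.baseChange k (v.toFun x)) i :=
    congrArg (fun z => fib k c' z i) (hr x)
  rw [fib_baseChange h, hw (f x) i, h, Derivation.leibniz, Pi.one_apply, dlo_one, zero_mul,
    add_zero, Algebra.smul_def, Algebra.smul_def] at h1
  have h2 := unit_mul_inv k (χ i)
  unfold dlo
  linear_combination (-algebraMap R k (((χ i)⁻¹ : Rˣ) : R)) * h1 +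
    (D (c x i) - fib k c (v.toFun x) i) * h2

omit [Fintype κ] [DecidableEq κ] in
theorem Tw.diff {D : Derivation ℤ R k} {c : M →ₗ[R] (κ → R)} {χ χ' : κ → Rˣ}
    {v v' : Conn D M} (h : Tw c χ v) (h' : Tw c χ' v') (z : k ⊗[R] M) (i : κ) :
    fib k c (Conn.diff v v' z) i = (dlo D (χ' i) - dlo D (χ i)) * fib k c z i := by
  induction z using TensorProduct.induction_on with
  | zero => simp
  | tmul a x =>
    rw [Conn.diff_tmul, map_smul, map_sub, Pi.smul_apply, Pi.sub_apply, h x i, h' x i, fib_tmul,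
      smul_eq_mul]
    ring
  | add x y hx hy => rw [map_add, map_add, Pi.add_apply, hx, hy, map_add, Pi.add_apply, mul_add]

/-- the trace of an endomorphism which is diagonal in coordinates -/
theorem trace_of_diag {V : Type*} [AddCommGroup V] [Module k V] (e : V →ₗ[k] (κ → k))
    (he : Function.Bijective e) (E : Module.End k V) (δ : κ → k)
    (h : ∀ y i, e (E y) i = δ i * e y i) : LinearMap.trace k V E = ∑ i, δ i := by
  let e' : V ≃ₗ[k] (κ → k) := LinearEquiv.ofBijective e he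
  have h1 : e'.conj E = Matrix.toLin' (Matrix.diagonal δ) := by
    refine LinearMap.ext fun y => funext fun i => ?_
    rw [LinearEquiv.conj_apply_apply, Matrix.toLin'_apply, Matrix.mulVec_diagonal]
    have h2 : e' (E (e'.symm y)) i = δ i * e' (e'.symm y) i := h _ i
    rw [h2, LinearEquiv.apply_symm_apply]
  rw [← LinearMap.trace_conj' E e', h1, Matrix.trace_toLin'_eq, Matrix.trace_diagonal]

variable {D : Fin 3 → Derivation ℤ R k}

theorem aTr_eq {c : M →ₗ[R] (κ → R)} (hc : Function.Bijective (fib k c))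
    {w0 w1 w2 w3 : Conn3 D M} {χ0 χ1 χ2 χ3 : κ → Rˣ} (h0 : ∀ l, Tw c χ0 (w0 l))
    (h1 : ∀ l, Tw c χ1 (w1 l)) (h2 : ∀ l, Tw c χ2 (w2 l)) (h3 : ∀ l, Tw c χ3 (w3 l)) :
    aTr w0 w1 w2 w3 = ∑ i, (dlo (D 0) (χ3 i) - dlo (D 0) (χ2 i)) *
      (dlo (D 1) (χ2 i) - dlo (D 1) (χ1 i)) * (dlo (D 2) (χ1 i) - dlo (D 2) (χ0 i)) := by
  rw [aTr]
  refine trace_of_diag (fib k c) hc _ _ fun y i => ?_
  rw [Module.End.mul_apply, Module.End.mul_apply, (h2 0).diff (h3 0), (h1 1).diff (h2 1),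
    (h0 2).diff (h1 2)]
  ring

/-- the value of the functional of a 3-cube -/
theorem cubeFun_eq {c : M →ₗ[R] (κ → R)} (hc : Function.Bijective (fib k c))
    {S : Bool → Bool → Bool → Conn3 D M} {χ1 χ2 χ3 χ4 : κ → Rˣ}
    (h4 : ∀ l, Tw c χ4 (S false false false l)) (h3 : ∀ l, Tw c χ3 (S false false true l))
    (h2 : ∀ b l, Tw c χ2 (S false true b l)) (h1 : ∀ b b' l, Tw c χ1 (S true b b' l)) :
    cubeFun aTr S = - ∑ i, (dlo (D 0) (χ1 i) - dlo (D 0) (χ2 i)) *
      (dlo (D 1) (χ2 i) - dlo (D 1) (χ3 i)) * (dlo (D 2) (χ3 i) - dlo (D 2) (χ4 i)) := by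
  rw [cubeFun, aTr_eq hc h4 (h1 _ _) (h1 _ _) (h1 _ _), aTr_eq hc h4 (h1 _ _) (h1 _ _) (h1 _ _),
    aTr_eq hc h4 (h2 _) (h1 _ _) (h1 _ _), aTr_eq hc h4 (h2 _) (h2 _) (h1 _ _),
    aTr_eq hc h4 h3 (h1 _ _) (h1 _ _), aTr_eq hc h4 h3 (h2 _) (h1 _ _)]
  simp only [sub_self, zero_mul, mul_zero, Finset.sum_const_zero, add_zero, zero_sub]

end Fib

section Chain

variable {R : Type u} {k : Type w} [CommRing R] [Field k] [Algebra R k]
variable {κ : Type} [Fintype κ] [DecidableEq κ]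
variable {D : Fin 3 → Derivation ℤ R k} (d : QData D)
variable {ι : Type*} [Preorder ι] (x : ι ⥤ QP R) {i0 i1 i2 i3 i4 : ι}
variable (h1 : i0 ≤ i1) (h2 : i1 ≤ i2) (h3 : i2 ≤ i3) (h4 : i3 ≤ i4)

theorem cub_of_subsingleton [Subsingleton (KM (up x (((h1.trans h2).trans h3).trans h4)))] :
    cub d x h1 h2 h3 h4 = 0 := by
  rw [cub, cubeFun]
  simp only [aTr_of_subsingleton, sub_self, add_zero, neg_zero]

/-- the value of the cocycle on a chain with coordinates -/
theorem cub_eq (c1 : KM (up x h1) →ₗ[R] (κ → R)) (c2 : KM (up x (h1.trans h2)) →ₗ[R] (κ → R))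
    (c3 : KM (up x ((h1.trans h2).trans h3)) →ₗ[R] (κ → R))
    (c4 : KM (up x (((h1.trans h2).trans h3).trans h4)) →ₗ[R] (κ → R))
    (hc : Function.Bijective (fib (M := KM (up x (((h1.trans h2).trans h3).trans h4))) k c4))
    (χ1 χ2 χ3 : κ → Rˣ)
    (t1 : ∀ l, Tw c1 1 (T0 d x h1 l)) (t2 : ∀ l, Tw c2 1 (T0 d x (h1.trans h2) l))
    (t3 : ∀ l, Tw c3 1 (T0 d x ((h1.trans h2).trans h3) l))
    (t4 : ∀ l, Tw c4 1 (T0 d x (((h1.trans h2).trans h3).trans h4) l))
    (p1 : ∀ y i, c1 (QKer.π (up_comp x h1 ((h2.trans h3).trans h4)) y) i = χ1 i * c4 y i)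
    (p2 : ∀ y i, c2 (QKer.π (up_comp x (h1.trans h2) (h3.trans h4)) y) i = χ2 i * c4 y i)
    (p3 : ∀ y i, c3 (QKer.π (up_comp x ((h1.trans h2).trans h3) h4) y) i = χ3 i * c4 y i) :
    cub d x h1 h2 h3 h4 = ∑ i, (dlo (D 0) (χ1 i) - dlo (D 0) (χ2 i)) *
      (dlo (D 1) (χ2 i) - dlo (D 1) (χ3 i)) * dlo (D 2) (χ3 i) := by
  rw [cub, cubeFun_eq (χ1 := χ1) (χ2 := χ2) (χ3 := χ3) (χ4 := 1) hc
    t4 (fun l => ?_) (fun b l => ?_) (fun b b' l => ?_)]
  · simp only [Pi.one_apply, dlo_one, sub_zero, neg_neg]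
  · exact Tw.of_rel p3 ((cpt3_3 d x h1 h2 h3 h4 false false).quo l) (t3 l)
  · exact Tw.of_rel p2 ((cpt3_2 d x h1 h2 h3 h4 false b).quo l) (t2 l)
  · exact Tw.of_rel p1 ((cpt3_1 d x h1 h2 h3 h4 b b').quo l) (t1 l)

end Chain

end Vale.Agent.P178.H847
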