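import Vale.Agent.P178.H847.EvalA
import Vale.Agent.P178.H51.Fun
import Vale.Agent.P178.H911.Eval

/-!
# Evaluation of the cocycle on the image of the suspension of the Steinberg group
-/

open CategoryTheory Simplicial
open scoped TensorProduct
open Vale.Agent.P178.H873
open Vale.Agent.P178.H51 (spData spFun glAut glAut_apply topAut topAut_coe)
open Vale.Agent.P178.H911 (Dg)

namespace Vale.Agent.P178.H847

universe u w

section Std

variable {R : Type u} {k : Type w} [CommRing R] [Field k] [Algebra R k]
variable {κ : Type} [Fintype κ] [DecidableEq κ]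
variable {M : Type*} [AddCommGroup M] [Module R M]

/-- the fibre of a free module -/
theorem fib_bijective (E : M ≃ₗ[R] (κ → R)) : Function.Bijective (fib k E.toLinearMap) := by
  have h : ∀ z, fib k E.toLinearMap z =
      TensorProduct.piScalarRight R k k κ (E.baseChange R k M (κ → R) z) := by
    intro z
    induction z using TensorProduct.induction_on with
    | zero => rw [map_zero, map_zero, map_zero]
    | tmul a x =>
      funext i
      rw [fib_tmul, LinearEquiv.baseChange_tmul, TensorProduct.piScalarRight_apply,
        TensorProduct.piScalarRightHom_tmul]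
      change a * algebraMap R k (E x i) = E x i • a
      rw [Algebra.smul_def, mul_comm]
    | add x y hx hy => rw [map_add, hx, hy, map_add, map_add]
  have h2 : (fib k E.toLinearMap : k ⊗[R] M → (κ → k)) =
      (TensorProduct.piScalarRight R k k κ) ∘ (E.baseChange R k M (κ → R)) := funext h
  rw [h2]
  exact (LinearEquiv.bijective _).comp (LinearEquiv.bijective _)

theorem fib_bijective' (c : M →ₗ[R] (κ → R)) (hc : Function.Bijective c) :
    Function.Bijective (fib k c) := fib_bijective (LinearEquiv.ofBijective c hc)

/-- the standard connection of a free module -/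
theorem exists_std (D : Derivation ℤ R k) (c : M →ₗ[R] (κ → R)) (hc : Function.Bijective c) :
    ∃ v : Conn D M, Tw c 1 v := by
  let e := LinearEquiv.ofBijective (fib k c) (fib_bijective' c hc)
  have he : ∀ z, e z = fib k c z := fun z => rfl
  refine ⟨⟨fun x => e.symm fun i => D (c x i), fun x y => ?_, fun r x => ?_⟩, fun x i => ?_⟩
  · apply e.injective
    rw [map_add e, LinearEquiv.apply_symm_apply, LinearEquiv.apply_symm_apply,
      LinearEquiv.apply_symm_apply]
    funext i
    rw [map_add, Pi.add_apply, map_add, Pi.add_apply]
  · apply e.injective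
    rw [map_add e, LinearEquiv.apply_symm_apply]
    have h1 : e (r • e.symm fun i => D (c x i)) = r • fun i => D (c x i) := by
      rw [← algebraMap_smul k r (e.symm fun i => D (c x i)), map_smul,
        LinearEquiv.apply_symm_apply, algebraMap_smul]
    rw [h1, he]
    funext i
    rw [Pi.add_apply, fib_tmul, map_smul, Pi.smul_apply, smul_eq_mul, Derivation.leibniz,
      Pi.smul_apply, Algebra.smul_def (c x i)]
    ring
  · have : fib k c (e.symm fun i => D (c x i)) = fun i => D (c x i) := e.apply_symm_apply _
    change fib k c (e.symm fun i => D (c x i)) i = _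
    rw [this, Pi.one_apply, dlo_one, zero_mul, add_zero]

end Std

section Free

variable {R : Type u} {k : Type w} [CommRing R] [Field k] [Algebra R k]
variable {ι : Type} [Fintype ι] [DecidableEq ι] {m : ℕ} (e : ι ≃ Fin m)

/-- the coordinates of the kernel of a morphism to a free module -/
def crd {X : QP R} (f : X ⟶ QP.free R m) : KM f →ₗ[R] (ι → R) where
  toFun x v := x.1.1 (e v)
  map_add' _ _ := rfl
  map_smul' _ _ := rfl

omit [Fintype ι] [DecidableEq ι] in
theorem crd_apply {X : QP R} (f : X ⟶ QP.free R m) (x : KM f) (v : ι) :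
    crd e f x v = x.1.1 (e v) := rfl

variable (R m) in
/-- the morphism of the zero object to the free module given by the quotient `0` -/
def topM : QP.zero R ⟶ QP.free R m := QHom.ofTop R (QP.zero R).M (QP.free R m).M

omit [Fintype ι] [DecidableEq ι] in
theorem crd_bijective : Function.Bijective (crd e (topM R m)) := by
  constructor
  · intro x y h
    apply Subtype.ext
    apply Subtype.ext
    funext i
    have key : ∀ j : Fin m, x.1.1 j = y.1.1 j := fun j => by
      have := congrFun h (e.symm j)
      rw [crd_apply, crd_apply, Equiv.apply_symm_apply] at this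
      exact this
    exact key i
  · intro w
    refine ⟨⟨⟨fun i => w (e.symm i), trivial⟩, ⟨trivial, rfl⟩⟩, ?_⟩
    funext v
    change w (e.symm (e v)) = w v
    rw [Equiv.symm_apply_apply]

/-- a choice of sections and connections for which the connection of the quotient `0` of the free
module is the standard one -/
theorem exists_qdata (D : Fin 3 → Derivation ℤ R k) :
    ∃ d : QData D, ∀ l, Tw (crd e (topM R m)) 1 (d.conn (topM R m) l) := by
  have h := fun l => exists_std (D l) (crd e (topM R m)) (crd_bijective e)
  choose v hv using h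
  obtain ⟨d, hd⟩ := QData.exists_of D (topM R m) v
  exact ⟨d, fun l => by rw [hd]; exact hv l⟩

variable {e} {D : Fin 3 → Derivation ℤ R k} {d : QData D}

omit [Fintype ι] [DecidableEq ι] in
theorem tw_conn (hd : ∀ l, Tw (crd e (topM R m)) 1 (d.conn (topM R m) l))
    {f : QP.zero R ⟶ QP.free R m} (hf : f = topM R m) (l : Fin 3) :
    Tw (crd e f) 1 (d.conn f l) := by
  subst hf
  exact hd l

theorem glAut_dg {γ : St ι R} {χ : ι → Rˣ} (hγ : Dg γ χ) (x : Fin m → R) (v : ι) :
    glAut e (St.toGL γ) x (e v) = χ v * x (e v) := by
  rw [glAut_apply, Equiv.symm_apply_apply]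
  have h : ((St.toGL γ : (Matrix ι ι R)ˣ) : Matrix ι ι R) =
    Matrix.diagonal fun k => (χ k : R) := hγ
  rw [h, Finset.sum_eq_single v]
  · rw [Matrix.diagonal_apply_eq]
  · intro j _ hj
    rw [Matrix.diagonal_apply_ne _ hj.symm, zero_mul]
  · intro h
    exact absurd (Finset.mem_univ v) h

theorem crd_pi {f : QP.zero R ⟶ QP.free R m} {g : QP.free R m ⟶ QP.free R m}
    {h : QP.zero R ⟶ QP.free R m} (he : f ≫ g = h) {γ : St ι R} {χ : ι → Rˣ} (hγ : Dg γ χ)
    (hg : g = (spData R e).ρ γ) (y : KM h) (v : ι) :
    crd e f (QKer.π (f := toQ f) (g := toQ g) (h := toQ h) he y) v = χ v * crd e h y v := by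
  subst hg
  exact glAut_dg hγ y.1.1 v

end Free

end Vale.Agent.P178.H847
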