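import Vale.Agent.P178.H847.QK

/-!
# Functoriality of `K_n`
-/

open CategoryTheory Simplicial Opposite

namespace Vale.Agent.P178.H847

universe u v w

section Pi

variable {X : Type u} {Y : Type v} {Z : Type w} [TopologicalSpace X] [TopologicalSpace Y]
  [TopologicalSpace Z]

theorem piMap_id (N : Type) [DecidableEq N] [Nonempty N] {x : X}
    (h : (ContinuousMap.id X) x = x) (a : HomotopyGroup N X x) :
    piMap N (ContinuousMap.id X) h a = a := by
  obtain ⟨p⟩ := a
  rfl

theorem piMap_comp (N : Type) [DecidableEq N] [Nonempty N] (g : C(X, Y)) (g' : C(Y, Z))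
    {x : X} {y : Y} {z : Z} (h : g x = y) (h' : g' y = z) (h'' : (g'.comp g) x = z)
    (a : HomotopyGroup N X x) :
    piMap N (g'.comp g) h'' a = piMap N g' h' (piMap N g h a) := by
  obtain ⟨p⟩ := a
  rfl

end Pi

section Functor

variable {R S T : Type u} [CommRing R] [CommRing S] [CommRing T]

theorem fv_comp (f : R →+* S) (g : S →+* T) {n : ℕ} (v : Fin n → R) :
    fv (g.comp f) v = fv g (fv f v) := rfl

theorem fv_id {n : ℕ} (v : Fin n → R) : fv (RingHom.id R) v = v := rfl

theorem bc_id {n : ℕ} (N : Submodule R (Fin n → R)) : bc (RingHom.id R) N = N := by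
  have : fv (RingHom.id R) '' (N : Set (Fin n → R)) = N := Set.image_id _
  rw [bc, this, Submodule.span_eq]

theorem bc_comp (f : R →+* S) (g : S →+* T) {n : ℕ} (N : Submodule R (Fin n → R)) :
    bc (g.comp f) N = bc g (bc f N) := by
  apply le_antisymm
  · rw [bc, Submodule.span_le]
    rintro _ ⟨v, hv, rfl⟩
    exact fv_mem_bc g (fv_mem_bc f hv)
  · rw [bc, Submodule.span_le]
    rintro _ ⟨v, hv, rfl⟩
    change v ∈ Submodule.span S _ at hv
    induction hv using Submodule.span_induction with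
    | mem x hx =>
      obtain ⟨w, hw, rfl⟩ := hx
      exact fv_mem_bc (g.comp f) hw
    | zero =>
      have : fv g (0 : Fin n → S) = 0 := funext fun _ => map_zero g
      rw [this]
      exact zero_mem _
    | add x y _ _ hx hy =>
      rw [fv_add]
      exact add_mem hx hy
    | smul r x _ hx =>
      rw [fv_smul]
      exact Submodule.smul_mem _ _ hx

/-- two morphisms between equal objects which have the same domain and the same values -/
theorem heq_of_val {n n' : ℕ} {N₁ N₁' : Submodule R (Fin n → R)}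
    {N₂ N₂' : Submodule R (Fin n' → R)} (h₁ : N₁ = N₁') (h₂ : N₂ = N₂') (φ : QHom R N₁ N₂)
    (φ' : QHom R N₁' N₂')
    (hd : ∀ x (hx : x ∈ N₂) (hx' : x ∈ N₂'), (⟨x, hx⟩ : N₂) ∈ φ.dom ↔ (⟨x, hx'⟩ : N₂') ∈ φ'.dom)
    (hf : ∀ x (hx : x ∈ N₂) (hx' : x ∈ N₂') (h : (⟨x, hx⟩ : N₂) ∈ φ.dom)
      (h' : (⟨x, hx'⟩ : N₂') ∈ φ'.dom), (φ.fn ⟨_, h⟩).1 = (φ'.fn ⟨_, h'⟩).1) : HEq φ φ' := by
  subst h₁
  subst h₂
  apply heq_of_eq
  exact QHom.ext' (fun x => hd x.1 x.2 x.2) fun x hx hx' => Subtype.ext (hf x.1 x.2 x.2 hx hx')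

theorem QP.baseChange_id : QP.baseChange (RingHom.id R) = 𝟭 (QP R) := by
  refine CategoryTheory.Functor.hext (fun P => ?_) fun P P' φ => ?_
  · obtain ⟨n, M, h⟩ := P
    change QP.bcObj (RingHom.id R) _ = _
    unfold QP.bcObj
    congr 1
    exact bc_id M
  · refine heq_of_val (n := P.n) (n' := P'.n) (bc_id P.M) (bc_id P'.M)
      (QP.bcHom (RingHom.id R) φ) φ (fun x hx hx' => ?_) fun x hx hx' h h' => ?_
    · have e : bc (RingHom.id R) (domAmb φ) = domAmb φ := bc_id _
      have e2 : x ∈ bc (RingHom.id R) (domAmb φ) ↔ (⟨x, hx'⟩ : P'.M) ∈ φ.dom := by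
        rw [e, mem_domAmb]
        exact ⟨fun h => h.2, fun h => ⟨_, h⟩⟩
      exact e2
    · have e1 := bcMap_fv (RingHom.id R) (amb φ) x
      have e2 : bcMap (RingHom.id R) (amb φ) x = amb φ x := e1
      exact e2.trans (amb_apply φ hx' h')

theorem QP.baseChange_comp (f : R →+* S) (g : S →+* T) :
    QP.baseChange (g.comp f) = QP.baseChange f ⋙ QP.baseChange g := by
  refine CategoryTheory.Functor.hext (fun P => ?_) fun P P' φ => ?_
  · obtain ⟨n, M, h⟩ := P
    change QP.bcObj (g.comp f) _ = QP.bcObj g (QP.bcObj f _)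
    unfold QP.bcObj
    congr 1
    exact bc_comp f g M
  · have e1 : domAmb (QP.bcHom f φ) = bc f (domAmb φ) := by
      ext x
      rw [mem_domAmb]
      exact ⟨fun h => h.2, fun h => ⟨bc_mono f (domAmb_le φ) h, h⟩⟩
    refine heq_of_val (n := P.n) (n' := P'.n) (bc_comp f g P.M) (bc_comp f g P'.M)
      (QP.bcHom (g.comp f) φ) (QP.bcHom g (QP.bcHom f φ)) (fun x hx hx' => ?_)
      fun x hx hx' h h' => ?_
    · have e2 : bc (g.comp f) (domAmb φ) = bc g (domAmb (QP.bcHom f φ)) :=
        (bc_comp f g (domAmb φ)).trans (congrArg (bc g) e1.symm)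
      have e3 : x ∈ bc (g.comp f) (domAmb φ) ↔ x ∈ bc g (domAmb (QP.bcHom f φ)) := by
        rw [e2]
        exact Iff.rfl
      exact e3
    · have hx2 : x ∈ bc (g.comp f) (domAmb φ) := h
      have key : ∀ v ∈ domAmb φ, bcMap (g.comp f) (amb φ) (fv (g.comp f) v) =
          bcMap g (n := P'.n) (m := P.n) (amb (QP.bcHom f φ)) (fv (g.comp f) v) := by
        intro v hv
        obtain ⟨h1, h2⟩ := mem_domAmb.1 hv
        have h3 : fv f v ∈ (QP.bcObj f P').M := fv_mem_bc f h1
        have h4 : (⟨fv f v, h3⟩ : (QP.bcObj f P').M) ∈ (QP.bcHom f φ).dom := fv_mem_bc f hv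
        have h5 : amb (QP.bcHom f φ) (fv f v) = fv f (φ.fn ⟨⟨v, h1⟩, h2⟩).1 :=
          (amb_apply (QP.bcHom f φ) h3 h4).trans (QP.bcHom_fn_fv f φ ⟨v, h1⟩ h2 h4)
        have h6 : bcMap g (n := P'.n) (m := P.n) (amb (QP.bcHom f φ)) (fv g (fv f v)) =
            fv g (amb (QP.bcHom f φ) (fv f v)) := bcMap_fv g _ _
        have h7 : bcMap (g.comp f) (amb φ) (fv (g.comp f) v) =
            fv g (fv f (φ.fn ⟨⟨v, h1⟩, h2⟩).1) := by
          rw [bcMap_fv, amb_apply φ h1 h2]
          rfl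
        exact h7.trans (Eq.trans (congrArg (fv g) h5.symm) h6.symm)
      exact bcMap_eq_on (g.comp f) (bcMap (g.comp f) (amb φ))
        (bcMap g (n := P'.n) (m := P.n) (amb (QP.bcHom f φ))) key hx2

end Functor

theorem map_nerveMap_id (C : Type u) [Category.{u} C] :
    SSet.toTop.map (nerveMap (𝟭 C)) = 𝟙 _ := by
  have : nerveMap (𝟭 C) = 𝟙 (nerve C) := rfl
  rw [this, CategoryTheory.Functor.map_id]

/-- `K_n` is a functor: identity -/
theorem K.map_id (n : ℕ) {R : Type u} [CommRing R] (a : K n R) :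
    K.map n (RingHom.id R) a = a := by
  have h : (BQ.map (RingHom.id R)).hom = ContinuousMap.id (BQ R) := by
    rw [BQ.map, QP.baseChange_id, map_nerveMap_id]
    rfl
  have key : ∀ (g : C(BQ R, BQ R)) (hg : g (BQ.base R) = BQ.base R),
      g = ContinuousMap.id (BQ R) → piMap (Fin (n + 1)) g hg a = a := by
    rintro g hg rfl
    exact piMap_id _ hg a
  exact key _ _ h

/-- `K_n` is a functor: composition -/
theorem K.map_comp (n : ℕ) {R S T : Type u} [CommRing R] [CommRing S] [CommRing T]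
    (f : R →+* S) (g : S →+* T) (a : K n R) :
    K.map n (g.comp f) a = K.map n g (K.map n f a) := by
  have h : (BQ.map (g.comp f)).hom = (BQ.map g).hom.comp (BQ.map f).hom := by
    rw [BQ.map, QP.baseChange_comp]
    have e : nerveMap (QP.baseChange f ⋙ QP.baseChange g) =
      nerveMap (QP.baseChange f) ≫ nerveMap (QP.baseChange g) := rfl
    rw [e, CategoryTheory.Functor.map_comp]
    rfl
  have key : ∀ (φ : C(BQ R, BQ T)) (hφ : φ (BQ.base R) = BQ.base T),
      φ = (BQ.map g).hom.comp (BQ.map f).hom →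
      piMap (Fin (n + 1)) φ hφ a = K.map n g (K.map n f a) := by
    rintro φ hφ rfl
    exact piMap_comp _ _ _ _ _ _ a
  exact key _ _ h

end Vale.Agent.P178.H847
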